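import Vale.Agent.P202M.FinM

open IsLocalRing Filter Topology

namespace Vale.Agent.Results.P202.Full

theorem result (R S : Type*)
    [CommRing R] [IsLocalRing R] [IsNoetherianRing R]
    [CommRing S] [IsLocalRing S] [IsNoetherianRing S] [Algebra R S] [Module.Flat R S]
    [IsLocalHom (algebraMap R S)] :
    ∃ (d D : ℕ) (eR eS : ℝ), ringKrullDim R = d ∧ ringKrullDim S = D ∧
      (∀ N : ℕ, Module.length R (R ⧸ maximalIdeal R ^ N) ≠ ⊤) ∧
      (∀ N : ℕ, Module.length S (S ⧸ maximalIdeal S ^ N) ≠ ⊤) ∧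
      Tendsto (fun N : ℕ => ((d.factorial : ℝ) *
        ((Module.length R (R ⧸ maximalIdeal R ^ N)).toNat : ℝ)) / (N : ℝ) ^ d) atTop (𝓝 eR) ∧
      Tendsto (fun N : ℕ => ((D.factorial : ℝ) *
        ((Module.length S (S ⧸ maximalIdeal S ^ N)).toNat : ℝ)) / (N : ℝ) ^ D) atTop (𝓝 eS) ∧
      eR ≤ eS := by
  have key : ∀ x : WithBot ℕ∞, x ≠ ⊥ → x ≠ ⊤ → ∃ d : ℕ, x = d := fun x h1 h2 => by
    lift x to ℕ∞ using h1
    lift x to ℕ using fun h => h2 (by rw [h]; rfl)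
    exact ⟨x, rfl⟩
  obtain ⟨d, hd⟩ := key (ringKrullDim R) ringKrullDim_ne_bot ringKrullDim_ne_top
  obtain ⟨D, hD⟩ := key (ringKrullDim S) ringKrullDim_ne_bot ringKrullDim_ne_top
  obtain ⟨eR, eS, h1, h2, h3⟩ := Vale.Agent.P202.lech_all R S d D hd hD
  refine ⟨d, D, eR, eS, hd, hD, fun N => ?_, fun N => ?_, h1, h2, h3⟩
  · have := Vale.Agent.P202.lm_ne_top (M := R) (I := maximalIdeal R ^ N) ⟨N, le_sup_left⟩
    rwa [Vale.Agent.P202.lm_self] at this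
  · have := Vale.Agent.P202.lm_ne_top (M := S) (I := maximalIdeal S ^ N) ⟨N, le_sup_left⟩
    rwa [Vale.Agent.P202.lm_self] at this

end Vale.Agent.Results.P202.Full
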