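import Vale.Agent.P202.Final

open IsLocalRing Filter Topology

namespace Vale.Agent.Results.P202.PerfectResidue

theorem result (k R S : Type*) [Field k]
    [CommRing R] [IsLocalRing R] [IsNoetherianRing R] [Algebra k R]
    [PerfectField (ResidueField R)]
    [CommRing S] [IsLocalRing S] [IsNoetherianRing S] [Algebra R S] [Module.Flat R S]
    [IsLocalHom (algebraMap R S)] (d D : ℕ) (hd : ringKrullDim R = d) (hD : ringKrullDim S = D) :
    ∃ eR eS : ℝ,
      Tendsto (fun N : ℕ => ((d.factorial : ℝ) *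
        ((Module.length R (R ⧸ maximalIdeal R ^ N)).toNat : ℝ)) / (N : ℝ) ^ d) atTop (𝓝 eR) ∧
      Tendsto (fun N : ℕ => ((D.factorial : ℝ) *
        ((Module.length S (S ⧸ maximalIdeal S ^ N)).toNat : ℝ)) / (N : ℝ) ^ D) atTop (𝓝 eS) ∧
      eR ≤ eS :=
  Vale.Agent.P202.lech_perfect k R S d D hd hD

end Vale.Agent.Results.P202.PerfectResidue
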